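import Vale.Agent.P039.Defs

/-!
# P039: flipping squares and the by-pass of removed edges
-/

namespace Vale.Agent.P039

open Equiv

variable {W B : Type}

namespace Core

section perm

variable [Finite W]

theorem sameCycle_swap [DecidableEq W] (π : Perm W) {x y : W} (h : ¬ π.SameCycle x y) :
    (π * swap x y).SameCycle x y := by
  by_contra hc
  have h1 : (π * swap x y) x = π y := by simp
  have key : ∀ j : ℕ, (π * swap x y).SameCycle x ((π ^ (j + 1)) y) := by
    intro j
    induction j with
    | zero =>
      rw [zero_add, pow_one, ← h1]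
      exact Perm.sameCycle_apply_right.2 (Perm.SameCycle.refl _ _)
    | succ j ih =>
      have hy : (π ^ (j + 1)) y ≠ y := fun e => hc (by rw [e] at ih; exact ih)
      have hx : (π ^ (j + 1)) y ≠ x := fun e =>
        h (Perm.SameCycle.symm ⟨((j + 1 : ℕ) : ℤ), by rw [zpow_natCast]; exact e⟩)
      have h2 : (π * swap x y) ((π ^ (j + 1)) y) = (π ^ (j + 1 + 1)) y := by
        rw [Perm.mul_apply, swap_apply_of_ne_of_ne hx hy, ← Perm.mul_apply, ← pow_succ']
      rw [← h2]
      exact Perm.sameCycle_apply_right.2 ih
  have h3 := key (orderOf π - 1)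
  rw [Nat.sub_add_cancel (orderOf_pos π), pow_orderOf_eq_one] at h3
  exact hc h3

theorem sameCycle_of_step {π σ : Perm W} (h : ∀ u, σ.SameCycle u (π u)) {u v : W}
    (huv : π.SameCycle u v) : σ.SameCycle u v := by
  obtain ⟨i, hi⟩ := huv.exists_nat_pow_eq
  subst hi
  clear huv
  induction i with
  | zero => exact Perm.SameCycle.refl _ _
  | succ i ih =>
    rw [pow_succ', Perm.mul_apply]
    exact ih.trans (h _)

theorem cyc_lt [DecidableEq W] (π : Perm W) {x y : W} (h : ¬ π.SameCycle x y) :
    cyc (π * swap x y) < cyc π := by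
  classical
  have hxy := sameCycle_swap π h
  have hstep : ∀ u, (π * swap x y).SameCycle u (π u) := by
    intro u
    by_cases hx : u = x
    · subst hx
      have : (π * swap u y) y = π u := by simp
      rw [← this]
      exact Perm.sameCycle_apply_right.2 hxy
    · by_cases hy : u = y
      · subst hy
        have : (π * swap x u) x = π u := by simp
        rw [← this]
        exact Perm.sameCycle_apply_right.2 hxy.symm
      · have : (π * swap x y) u = π u := by
          rw [Perm.mul_apply, swap_apply_of_ne_of_ne hx hy]
        rw [← this]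
        exact Perm.sameCycle_apply_right.2 (Perm.SameCycle.refl _ _)
  let f : Quotient (Perm.SameCycle.setoid π) → Quotient (Perm.SameCycle.setoid (π * swap x y)) :=
    Quotient.map' id (fun u v huv => sameCycle_of_step hstep huv)
  have hf : Function.Surjective f := by
    intro q
    induction q using Quotient.inductionOn' with
    | h u => exact ⟨Quotient.mk'' u, rfl⟩
  have hnf : ¬ Function.Injective f := by
    intro hi
    have : (Quotient.mk'' x : Quotient (Perm.SameCycle.setoid π)) = Quotient.mk'' y := by
      apply hi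
      exact Quotient.sound' hxy
    exact h (Quotient.eq''.1 this)
  have : Fintype (Quotient (Perm.SameCycle.setoid π)) := Fintype.ofFinite _
  have : Fintype (Quotient (Perm.SameCycle.setoid (π * swap x y))) := Fintype.ofFinite _
  unfold cyc
  rw [Nat.card_eq_fintype_card, Nat.card_eq_fintype_card]
  exact Fintype.card_lt_of_surjective_not_injective f hf hnf

/-- By-pass: if every step of a cycle except the one at `w` stays in a class, so does the one at
`w`. -/
theorem bypass {r : W → W → Prop} (hr : Equivalence r) (ρ : Perm W) (w : W)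
    (h : ∀ u, ρ.SameCycle w u → u ≠ w → r u (ρ u)) : r w (ρ w) := by
  by_contra hc
  have key : ∀ j : ℕ, r (ρ w) ((ρ ^ (j + 1)) w) := by
    intro j
    induction j with
    | zero => rw [zero_add, pow_one]; exact hr.refl _
    | succ j ih =>
      have hw : (ρ ^ (j + 1)) w ≠ w := fun e => hc (hr.symm (by rw [e] at ih; exact ih))
      have h2 := h ((ρ ^ (j + 1)) w) ⟨((j + 1 : ℕ) : ℤ), by rw [zpow_natCast]⟩ hw
      rw [← Perm.mul_apply, ← pow_succ'] at h2
      exact hr.trans ih h2
  have h3 := key (orderOf ρ - 1)
  rw [Nat.sub_add_cancel (orderOf_pos ρ), pow_orderOf_eq_one] at h3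
  exact hc (hr.symm h3)

end perm

/-- One class of `c⁻¹ x` for a suitable choice `x` of one `a`- or `b`-edge at every white vertex. -/
theorem exists_full [Finite W] (a b c : W ≃ B) (hconn : (graph a b c).Preconnected)
    (s : W → Prop) (hs : ∀ w, s (face a b w) ↔ s w)
    (h1 : ∀ X : Set W, X.Nonempty → (∀ w ∈ X, face a b (face a b w) ≠ w ∧ s w) →
      ∃ w ∈ X, (∀ w' ∈ X, (face a b).SameCycle w w' → w' = w) ∨
        (∀ w' ∈ X, (face b c).SameCycle w w' → w' = w))
    (h2 : ∀ X : Set W, X.Nonempty → (∀ w ∈ X, face a b (face a b w) ≠ w ∧ ¬ s w) →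
      ∃ w ∈ X, (∀ w' ∈ X, (face a b).SameCycle w w' → w' = w) ∨
        (∀ w' ∈ X, (face a c).SameCycle w w' → w' = w)) :
    ∃ x : W ≃ B, (∀ w, x w = a w ∨ x w = b w) ∧ ∀ u v, (face x c).SameCycle u v := by
  classical
  set τ := face a b with hτ
  have hτa : ∀ w, b (τ w) = a w := fun w => by simp [hτ, face]
  -- admissible choices
  let Adm : (W ≃ B) → Prop := fun x =>
    (∀ w, x w = a w ∨ x w = b w) ∧ (∀ w, τ (τ w) ≠ w → (s w → x w = a w) ∧ (¬ s w → x w = b w))
  -- the start
  have hstart : ∃ x, Adm x := by
    let f : W → B := fun w => if s w then a w else b w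
    have hf : Function.Injective f := by
      intro w w' hww
      by_cases hw : s w <;> by_cases hw' : s w'
      · simp only [f, hw, hw', if_true] at hww
        exact a.injective hww
      · simp only [f, hw, hw', if_true, if_false] at hww
        rw [← hτa] at hww
        have := b.injective hww
        exact absurd (by rw [← this]; exact (hs w).2 hw) hw'
      · simp only [f, hw, hw', if_true, if_false] at hww
        rw [← hτa] at hww
        have := b.injective hww
        exact absurd (by rw [this]; exact (hs w').2 hw') hw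
      · simp only [f, hw, hw', if_false] at hww
        exact b.injective hww
    have hg : Function.Bijective (fun w => c.symm (f w)) :=
      Finite.injective_iff_bijective.1 (c.symm.injective.comp hf)
    refine ⟨(Equiv.ofBijective _ hg).trans c, ?_, ?_⟩
    · intro w
      simp only [Equiv.trans_apply, Equiv.ofBijective_apply, Equiv.apply_symm_apply, f]
      by_cases hw : s w <;> simp [hw]
    · intro w _
      simp only [Equiv.trans_apply, Equiv.ofBijective_apply, Equiv.apply_symm_apply, f]
      exact ⟨fun hw => by simp [hw], fun hw => by simp [hw]⟩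
  -- a choice with the smallest number of cycles
  have hmin : ∃ x, Adm x ∧ ∀ y, Adm y → cyc (face x c) ≤ cyc (face y c) := by
    have hne : ∃ m, ∃ x, Adm x ∧ cyc (face x c) = m := by
      obtain ⟨x, hx⟩ := hstart
      exact ⟨_, x, hx, rfl⟩
    obtain ⟨x, hx, hxm⟩ := Nat.find_spec hne
    refine ⟨x, hx, fun y hy => ?_⟩
    rw [hxm]
    exact Nat.find_min' hne ⟨y, hy, rfl⟩
  obtain ⟨x, ⟨hx1, hx2⟩, hxmin⟩ := hmin
  set π := face x c with hπ
  have hπx : ∀ w, c.symm (x w) = π w := fun w => by simp [hπ, face]
  have hsq : ∀ w, τ (τ w) = w → π.SameCycle w (τ w) := by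
    intro w hw
    by_contra hc
    have hwτ : w ≠ τ w := fun e => hc (by rw [← e])
    have hadm : Adm ((swap w (τ w)).trans x) := by
      have hbw : a (τ w) = b w := by rw [← hτa, hw]
      constructor
      · intro u
        by_cases hu : u = w
        · subst hu
          simp only [Equiv.trans_apply, swap_apply_left]
          rcases hx1 (τ u) with h | h
          · right; rw [h, hbw]
          · left; rw [h, hτa]
        · by_cases hu' : u = τ w
          · subst hu'
            simp only [Equiv.trans_apply, swap_apply_right]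
            rcases hx1 w with h | h
            · right; rw [h, hτa]
            · left; rw [h, hbw]
          · simp only [Equiv.trans_apply, swap_apply_of_ne_of_ne hu hu']
            exact hx1 u
      · intro u hu
        have hu1 : u ≠ w := fun e => hu (by rw [e]; exact hw)
        have hu2 : u ≠ τ w := fun e => hu (by rw [e, hw])
        simp only [Equiv.trans_apply, swap_apply_of_ne_of_ne hu1 hu2]
        exact hx2 u hu
    have hlt := cyc_lt π hc
    have heq : face ((swap w (τ w)).trans x) c = π * swap w (τ w) := by
      ext u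
      simp [hπ, face]
    have := hxmin _ hadm
    rw [heq] at this
    exact absurd this (not_le.2 hlt)
  have hstep : ∀ u, π.SameCycle u (π u) := fun u =>
    Perm.sameCycle_apply_right.2 (Perm.SameCycle.refl _ _)
  have hequiv : Equivalence (fun u v => π.SameCycle u v) :=
    ⟨fun u => Perm.SameCycle.refl _ _, fun h => h.symm, fun h h' => h.trans h'⟩
  -- steps at squares
  have hsqstep : ∀ w, τ (τ w) = w → π.SameCycle w (face a c w) ∧ π.SameCycle w (face b c w) := by
    intro w hw
    have hbw : a (τ w) = b w := by rw [← hτa, hw]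
    have hww := hsq w hw
    have h3 : π.SameCycle w (c.symm (x w)) := by rw [hπx]; exact hstep w
    have h4 : π.SameCycle w (c.symm (x (τ w))) := by rw [hπx]; exact hww.trans (hstep _)
    have hfa : face a c w = c.symm (a w) := rfl
    have hfb : face b c w = c.symm (b w) := rfl
    rw [hfa, hfb]
    by_cases hτw : τ w = w
    · have hab : a w = b w := by rw [← hτa, hτw]
      rcases hx1 w with h | h
      · rw [h] at h3; exact ⟨h3, by rw [← hab]; exact h3⟩
      · rw [h] at h3; exact ⟨by rw [hab]; exact h3, h3⟩
    · rcases hx1 w with h | h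
      · have h5 : x (τ w) = b w := by
          rcases hx1 (τ w) with h' | h'
          · rw [h', hbw]
          · exact absurd (x.injective (by rw [h', hτa, h])) hτw
        rw [h] at h3; rw [h5] at h4
        exact ⟨h3, h4⟩
      · have h5 : x (τ w) = a w := by
          rcases hx1 (τ w) with h' | h'
          · exact absurd (x.injective (by rw [h', hbw, h])) hτw
          · rw [h', hτa]
        rw [h] at h3; rw [h5] at h4
        exact ⟨h4, h3⟩
  have hA : ∀ w, τ (τ w) ≠ w → s w → π.SameCycle w (face a c w) := by
    intro w hw hsw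
    have : face a c w = π w := by rw [← hπx, (hx2 w hw).1 hsw]; rfl
    rw [this]; exact hstep w
  have hB : ∀ w, τ (τ w) ≠ w → ¬ s w → π.SameCycle w (face b c w) := by
    intro w hw hsw
    have : face b c w = π w := by rw [← hπx, (hx2 w hw).2 hsw]; rfl
    rw [this]; exact hstep w
  -- invariance along the faces of the first class
  have hinv : ∀ w u, τ.SameCycle w u → (τ (τ w) ≠ w → τ (τ u) ≠ u) ∧ (s u ↔ s w) := by
    intro w u hu
    obtain ⟨i, hi⟩ := hu.exists_nat_pow_eq
    subst hi
    clear hu
    induction i with
    | zero => simp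
    | succ i ih =>
      rw [pow_succ', Perm.mul_apply]
      refine ⟨fun h e => ih.1 h (τ.injective e), ?_⟩
      rw [hs]
      exact ih.2
  have hlink : ∀ u, face a c u = face b c (τ u) := fun u => by
    change c.symm (a u) = c.symm (b (τ u))
    rw [hτa]
  have hallb : ∀ w, π.SameCycle w (face b c w) := by
    by_contra hcon
    rw [not_forall] at hcon
    obtain ⟨w₀, hw₀⟩ := hcon
    have hbad : ∀ w, ¬ π.SameCycle w (face b c w) → τ (τ w) ≠ w ∧ s w := by
      intro w hw
      have h5 : τ (τ w) ≠ w := fun e => hw (hsqstep w e).2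
      exact ⟨h5, by_contra fun hsw => hw (hB w h5 hsw)⟩
    obtain ⟨w, hw, hw2⟩ := h1 {w | ¬ π.SameCycle w (face b c w)} ⟨w₀, hw₀⟩ hbad
    have hgood : ∀ u, u ∉ {w | ¬ π.SameCycle w (face b c w)} → π.SameCycle u (face b c u) :=
      fun u hu => not_not.1 hu
    rcases hw2 with hw2 | hw2
    · have hstep2 : ∀ u, τ.SameCycle w u → π.SameCycle (τ.symm u) (face b c u) := by
        intro u hu
        have h6 : τ.SameCycle w (τ.symm u) := by
          refine Perm.sameCycle_apply_right.1 ?_
          rw [Equiv.apply_symm_apply]
          exact hu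
        have h7 := hinv w _ h6
        have h8 := hA (τ.symm u) (h7.1 (hbad w hw).1) (h7.2.2 (hbad w hw).2)
        rwa [hlink, Equiv.apply_symm_apply] at h8
      have h9 : π.SameCycle w (τ⁻¹ w) := by
        refine bypass hequiv τ⁻¹ w fun u hu huw => ?_
        rw [Perm.sameCycle_inv] at hu
        have h10 : u ∉ {w | ¬ π.SameCycle w (face b c w)} := fun hu' => huw (hw2 u hu' hu)
        rw [Perm.inv_def]
        exact (hgood u h10).trans (hstep2 u hu).symm
      rw [Perm.inv_def] at h9
      exact hw (h9.trans (hstep2 w (Perm.SameCycle.refl _ _)))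
    · refine hw (bypass hequiv (face b c) w fun u hu huw => ?_)
      exact hgood u fun hu' => huw (hw2 u hu' hu)
  have halla : ∀ w, π.SameCycle w (face a c w) := by
    by_contra hcon
    rw [not_forall] at hcon
    obtain ⟨w₀, hw₀⟩ := hcon
    have hbad : ∀ w, ¬ π.SameCycle w (face a c w) → τ (τ w) ≠ w ∧ ¬ s w := by
      intro w hw
      have h5 : τ (τ w) ≠ w := fun e => hw (hsqstep w e).1
      exact ⟨h5, fun hsw => hw (hA w h5 hsw)⟩
    obtain ⟨w, hw, hw2⟩ := h2 {w | ¬ π.SameCycle w (face a c w)} ⟨w₀, hw₀⟩ hbad
    have hgood : ∀ u, u ∉ {w | ¬ π.SameCycle w (face a c w)} → π.SameCycle u (face a c u) :=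
      fun u hu => not_not.1 hu
    rcases hw2 with hw2 | hw2
    · have hstep2 : ∀ u, π.SameCycle (face a c u) (τ u) := fun u => by
        rw [hlink]
        exact (hallb (τ u)).symm
      have h9 : π.SameCycle w (τ w) := by
        refine bypass hequiv τ w fun u hu huw => ?_
        have h10 : u ∉ {w | ¬ π.SameCycle w (face a c w)} := fun hu' => huw (hw2 u hu' hu)
        exact (hgood u h10).trans (hstep2 u)
      exact hw (h9.trans (hstep2 w).symm)
    · refine hw (bypass hequiv (face a c) w fun u hu huw => ?_)
      exact hgood u fun hu' => huw (hw2 u hu' hu)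
  refine ⟨x, hx1, ?_⟩
  -- connectivity
  let cl : W ⊕ B → W := fun v => Sum.elim id c.symm v
  have hadj : ∀ u v, (graph a b c).Adj u v → π.SameCycle (cl u) (cl v) := by
    have hwb : ∀ (w : W) (v : B), (a w = v ∨ b w = v ∨ c w = v) → π.SameCycle w (c.symm v) := by
      rintro w v (h | h | h)
      · rw [← h]; exact halla w
      · rw [← h]; exact hallb w
      · rw [← h, Equiv.symm_apply_apply]
    rintro (w | v) (w' | v') h
    · exact h.elim
    · exact hwb w v' h
    · exact (hwb w' v h).symm
    · exact h.elim
  have hreach : ∀ u v, (graph a b c).Reachable u v → π.SameCycle (cl u) (cl v) := by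
    rintro u v ⟨p⟩
    induction p with
    | nil => exact Perm.SameCycle.refl _ _
    | cons h _ ih => exact (hadj _ _ h).trans ih
  intro u v
  exact hreach (.inl u) (.inl v) (hconn _ _)

end Core

end Vale.Agent.P039
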