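import Mathlib

/-!
# P039: cubic bipartite plane graphs as triples of bijections

A cubic bipartite plane graph with white vertices `W` and black vertices `B` has a proper
3-colouring of its faces.  Give every edge the colour of the two faces which it does not border:
this splits the edges into three perfect matchings `a b c : W ≃ B`, and the faces are exactly the
two-coloured cycles: the faces of one colour class are the `a`-`b`-cycles, those of the second the
`b`-`c`-cycles, those of the third the `c`-`a`-cycles.  Conversely every triple of bijections is a
cubic bipartite graph embedded in an orientable surface with a proper 3-colouring of the faces,
and the surface is the sphere if and only if the graph is connected and Euler's formula holds.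
-/

namespace Vale.Agent.P039

open Equiv

variable {W B : Type}

/-- The bipartite graph with vertex classes `W`, `B` and edges `w - a w`, `w - b w`, `w - c w`. -/
def graph (a b c : W ≃ B) : SimpleGraph (W ⊕ B) where
  Adj
    | .inl w, .inr v => a w = v ∨ b w = v ∨ c w = v
    | .inr v, .inl w => a w = v ∨ b w = v ∨ c w = v
    | _, _ => False
  symm := ⟨by rintro (x | x) (y | y) h <;> exact h⟩
  loopless := ⟨by rintro (x | x) h <;> exact h⟩

/-- The permutation of the white vertices whose cycles are the `p`-`q`-coloured cycles: from `w`
along the `p`-edge and back along the `q`-edge.  A cycle of length `k` of it is a face with `2 k`
edges. -/
def face (p q : W ≃ B) : Perm W := p.trans q.symm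

/-- The number of cycles of a permutation (fixed points are counted). -/
noncomputable def cyc (σ : Perm W) : ℕ := Nat.card (Quotient (Perm.SameCycle.setoid σ))

end Vale.Agent.P039
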