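import Vale.Agent.P039.Defs

/-!
# P039: squares, forests of faces, 3-connected graphs
-/

namespace Vale.Agent.P039

open Equiv

/-- A graph is 3-vertex-connected if it has at least four vertices and deleting any set of at most
two vertices leaves it connected. -/
def ThreeConnected {V : Type} (G : SimpleGraph V) : Prop :=
  4 ≤ Nat.card V ∧ ∀ S : Set V, S.ncard ≤ 2 → (G.induce Sᶜ).Connected

variable {W B : Type}

/-- The `a`-`b`-coloured face at the white vertex `w` is a square, that is, the cycle of `face a b`
through `w` has length two (length one is excluded when the graph is simple). -/
def Square (a b : W ≃ B) (w : W) : Prop := face a b (face a b w) = w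

/-- `E` is a set of edges (named by their white ends); the edge at `w` borders the face of the first
kind and the face of the second kind at `w` (cycles of `σ` and of `ρ`).  The graph whose vertices
are the faces of both kinds and whose edges are the elements of `E` is a forest: every nonempty
subset of `E` has an element which is its only element on one of the two faces which it borders. -/
def Forest (σ ρ : Perm W) (E : Set W) : Prop :=
  ∀ X : Set W, X ⊆ E → X.Nonempty →
    ∃ w ∈ X, (∀ w' ∈ X, σ.SameCycle w w' → w' = w) ∨ (∀ w' ∈ X, ρ.SameCycle w w' → w' = w)

end Vale.Agent.P039
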