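import Vale.Agent.P039.Defs

/-!
# P039, Euler's inequality for a pair of permutations

If the group generated by `a` and `b` is transitive on the `n` points of `W`, then the numbers of
cycles of `a`, `b` and `b⁻¹ a` add up to at most `n + 2`.

Proof: let `F σ` be the space of the functions `W → ℚ` which are constant on the cycles of `σ`.
If `f ∈ F a`, `g ∈ F b` and `f + g ∈ F (b⁻¹ a)` then a sum of squares vanishes, so that `f` and
`g` are invariant under both permutations, hence constant.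
-/

namespace Vale.Agent.P039

open Equiv

namespace Eul

variable {W : Type} [Fintype W]

/-- The functions which are constant on the cycles of `σ`. -/
noncomputable def F (σ : Perm W) : Submodule ℚ (W → ℚ) :=
  LinearMap.range (LinearMap.funLeft ℚ ℚ
    (fun w : W => (Quotient.mk (Perm.SameCycle.setoid σ) w)))

theorem finrank_F (σ : Perm W) : Module.finrank ℚ (F σ) = cyc σ := by
  classical
  unfold F cyc
  rw [LinearMap.finrank_range_of_inj]
  · have : Fintype (Quotient (Perm.SameCycle.setoid σ)) := Fintype.ofFinite _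
    rw [Module.finrank_fintype_fun_eq_card, Nat.card_eq_fintype_card]
  · apply LinearMap.funLeft_injective_of_surjective
    exact Quotient.mk_surjective

omit [Fintype W] in
theorem mem_F {σ : Perm W} {f : W → ℚ} (hf : f ∈ F σ) (w : W) : f (σ w) = f w := by
  obtain ⟨g, rfl⟩ := hf
  simp only [LinearMap.funLeft_apply]
  congr 1
  apply Quotient.sound
  exact Perm.SameCycle.symm ⟨1, by simp⟩

/-- The sum of squares. -/
theorem key (a b : Perm W) {f g : W → ℚ} (hf : ∀ w, f (a w) = f w) (hg : ∀ w, g (b w) = g w)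
    (hk : ∀ w, (f + g) ((b⁻¹ * a) w) = (f + g) w) :
    (∀ w, f (b w) = f w) ∧ (∀ w, g (a w) = g w) := by
  have hg' : ∀ w, g (b⁻¹ w) = g w := by
    intro w
    have := hg (b⁻¹ w)
    simpa using this.symm
  -- `f (b⁻¹ (a w)) + g (a w) = f (a w) + g w`
  have h1 : ∀ w, f (b⁻¹ (a w)) - f (a w) = g w - g (a w) := by
    intro w
    have := hk w
    simp only [Pi.add_apply, Perm.mul_apply] at this
    rw [hg' (a w), ← hf w] at this
    linarith
  have e1 : ∑ w, (f (b⁻¹ (a w))) ^ 2 = ∑ w, (f w) ^ 2 :=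
    Equiv.sum_comp (b⁻¹ * a) (fun w => (f w) ^ 2)
  have e2 : ∑ w, (f (a w)) ^ 2 = ∑ w, (f w) ^ 2 :=
    Equiv.sum_comp a (fun w => (f w) ^ 2)
  have e3 : ∑ w, g (a w) * f (a w) = ∑ w, g w * f w :=
    Equiv.sum_comp a (fun w => g w * f w)
  have e4 : ∑ w, g w * f (a w) = ∑ w, g w * f w := by
    refine Finset.sum_congr rfl fun w _ => ?_
    rw [hf]
  have e5 : ∑ w, (f (b⁻¹ (a w)) - f (a w)) * f (a w) = 0 := by
    have : ∀ w, (f (b⁻¹ (a w)) - f (a w)) * f (a w) = g w * f (a w) - g (a w) * f (a w) := by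
      intro w
      rw [h1 w]; ring
    rw [Finset.sum_congr rfl fun w _ => this w, Finset.sum_sub_distrib, e4, e3, sub_self]
  have e6 : ∑ w, (f (b⁻¹ (a w)) - f (a w)) ^ 2 = 0 := by
    have : ∀ w, (f (b⁻¹ (a w)) - f (a w)) ^ 2 = (f (b⁻¹ (a w))) ^ 2 - (f (a w)) ^ 2
        - 2 * ((f (b⁻¹ (a w)) - f (a w)) * f (a w)) := by
      intro w
      ring
    rw [Finset.sum_congr rfl fun w _ => this w, Finset.sum_sub_distrib, Finset.sum_sub_distrib,
      ← Finset.mul_sum, e5, e1, e2]
    ring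
  have e7 : ∀ w, f (b⁻¹ (a w)) = f (a w) := by
    intro w
    have := (Finset.sum_eq_zero_iff_of_nonneg (fun w _ => sq_nonneg _)).1 e6 w (Finset.mem_univ _)
    have := pow_eq_zero_iff (two_ne_zero) |>.1 this
    linarith
  have e8 : ∀ w, f (b⁻¹ w) = f w := by
    intro w
    have := e7 (a⁻¹ w)
    simpa using this
  refine ⟨?_, ?_⟩
  · intro w
    have := e8 (b w)
    simpa using this.symm
  · intro w
    have := h1 w
    rw [e7] at this
    linarith

end Eul

open Eul in
/-- **Euler's inequality**: if the numbers of cycles of `a`, `b` and `b⁻¹ a` add up to more than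
`|W| + 2`, then there is a proper non-empty set which is invariant under `a` and `b`. -/
theorem euler {W : Type} [Fintype W] [DecidableEq W] (a b : Equiv.Perm W)
    (h : Fintype.card W + 2 < cyc a + cyc b + cyc (b⁻¹ * a)) :
    ∃ S : Set W, S.Nonempty ∧ Sᶜ.Nonempty ∧ (∀ w, w ∈ S ↔ a w ∈ S) ∧
      (∀ w, w ∈ S ↔ b w ∈ S) := by
  classical
  by_contra hno
  -- a function invariant under both is constant
  have hconst : ∀ f : W → ℚ, (∀ w, f (a w) = f w) → (∀ w, f (b w) = f w) →
      ∀ v w, f v = f w := by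
    intro f hfa hfb v w
    by_contra hvw
    refine hno ⟨{u | f u = f v}, ⟨v, rfl⟩, ⟨w, fun hw => hvw hw.symm⟩, ?_, ?_⟩
    · intro u; simp [hfa u]
    · intro u; simp [hfb u]
  set C : Submodule ℚ (W → ℚ) := Submodule.span ℚ {fun _ => (1 : ℚ)} with hC
  have hC1 : Module.finrank ℚ C ≤ 1 := by
    have := finrank_span_le_card (R := ℚ) ({fun _ => (1 : ℚ)} : Set (W → ℚ))
    simpa using this
  have hinC : ∀ f : W → ℚ, (∀ w, f (a w) = f w) → (∀ w, f (b w) = f w) → f ∈ C := by
    intro f hfa hfb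
    rw [hC, Submodule.mem_span_singleton]
    rcases isEmpty_or_nonempty W with hW | ⟨⟨w₀⟩⟩
    · exact ⟨0, Subsingleton.elim _ _⟩
    · refine ⟨f w₀, ?_⟩
      funext w
      simp [hconst f hfa hfb w₀ w]
  have hab : F a ⊓ F b ≤ C := fun f hf => hinC f (mem_F hf.1) (mem_F hf.2)
  have hcab : (F a ⊔ F b) ⊓ F (b⁻¹ * a) ≤ C := by
    rintro k ⟨hk1, hk2⟩
    obtain ⟨f, hf, g, hg, rfl⟩ := Submodule.mem_sup.1 hk1
    obtain ⟨hfb, hga⟩ := key a b (mem_F hf) (mem_F hg) (mem_F hk2)
    exact C.add_mem (hinC f (mem_F hf) hfb) (hinC g hga (mem_F hg))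
  have d1 := Submodule.finrank_sup_add_finrank_inf_eq (F a) (F b)
  have d2 := Submodule.finrank_sup_add_finrank_inf_eq (F a ⊔ F b) (F (b⁻¹ * a))
  have d3 := Submodule.finrank_mono hab
  have d4 := Submodule.finrank_mono hcab
  have d5 := Submodule.finrank_le ((F a ⊔ F b) ⊔ F (b⁻¹ * a))
  rw [Module.finrank_fintype_fun_eq_card] at d5
  rw [finrank_F, finrank_F] at d1
  rw [finrank_F] at d2
  omega

end Vale.Agent.P039
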