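import Vale.Agent.P039.Core

/-!
# P039: a full cycle of adjacent vertices is a Hamiltonian cycle
-/

namespace Vale.Agent.P039

open Equiv

namespace Ham

theorem hamiltonian_of_perm {V : Type} [Fintype V] [DecidableEq V] (G : SimpleGraph V)
    (σ : Perm V) (h : ∀ u v, σ.SameCycle u v) (hadj : ∀ v, G.Adj v (σ v))
    (h3 : 3 ≤ Fintype.card V) : G.IsHamiltonian := by
  classical
  intro _
  obtain ⟨v₀⟩ : Nonempty V := Fintype.card_pos_iff.1 (by omega)
  have hord : orderOf σ = Fintype.card V := by
    have hcyc : σ.IsCycle := by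
      refine ⟨v₀, fun e => (hadj v₀).ne e.symm, fun y _ => h v₀ y⟩
    rw [hcyc.orderOf]
    have : σ.support = Finset.univ := by
      ext v
      simp only [Perm.mem_support, Finset.mem_univ, iff_true]
      exact fun e => (hadj v).ne e.symm
    rw [this, Finset.card_univ]
  obtain ⟨n, hn⟩ : ∃ n, Fintype.card V = n + 3 := ⟨Fintype.card V - 3, by omega⟩
  let f : Fin (n + 3) → V := fun i => (σ ^ (i : ℕ)) v₀
  have hsurj : Function.Surjective f := by
    intro v
    obtain ⟨i, hi, hv⟩ := (h v₀ v).exists_pow_eq'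
    exact ⟨⟨i, by omega⟩, hv⟩
  have hbij : Function.Bijective f :=
    (Fintype.bijective_iff_surjective_and_card f).2 ⟨hsurj, by rw [Fintype.card_fin, hn]⟩
  have hper : (σ ^ (n + 3)) = 1 := by rw [← hn, ← hord]; exact pow_orderOf_eq_one σ
  have hstep : ∀ i : Fin (n + 3), f (i + 1) = σ (f i) := by
    intro i
    by_cases hi : i = Fin.last (n + 2)
    · subst hi
      rw [Fin.last_add_one]
      simp only [f, Fin.val_zero, pow_zero, Perm.one_apply, Fin.val_last]
      rw [← Perm.mul_apply, ← pow_succ', hper, Perm.one_apply]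
    · have : ((i + 1 : Fin (n + 3)) : ℕ) = i + 1 := Fin.val_add_one_of_lt (Fin.lt_last_iff_ne_last.2 hi)
      simp only [f, this]
      rw [pow_succ', Perm.mul_apply]
  let F : SimpleGraph.cycleGraph (n + 3) →g G :=
    { toFun := f
      map_rel' := by
        intro i j hij
        rw [SimpleGraph.cycleGraph_adj] at hij
        rcases hij with e | e
        · have : i = j + 1 := eq_add_of_sub_eq' e
          rw [this, hstep]; exact (hadj _).symm
        · have : j = i + 1 := eq_add_of_sub_eq' e
          rw [this, hstep]; exact hadj _ }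
  have hc : (SimpleGraph.cycleGraph.cycle n).IsHamiltonianCycle :=
    SimpleGraph.Walk.isHamiltonianCycle_iff_isCycle_and_length_eq.2
      ⟨SimpleGraph.cycleGraph.isCycle_cycle, by
        rw [SimpleGraph.cycleGraph.length_cycle, Fintype.card_fin]⟩
  exact ⟨_, _, hc.map (f := F) hbij⟩

variable {W B : Type} [Fintype W] [Fintype B] [DecidableEq W] [DecidableEq B]

theorem hamiltonian_of_full (a b c x : W ≃ B) (hx : ∀ w, x w = a w ∨ x w = b w)
    (hfull : ∀ u v, (face x c).SameCycle u v) (hW : 2 ≤ Fintype.card W) :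
    (graph a b c).IsHamiltonian := by
  let σ : Perm (W ⊕ B) := (Equiv.sumCongr x c.symm).trans (Equiv.sumComm B W)
  have hl : ∀ w, σ (.inl w) = .inr (x w) := fun w => rfl
  have hr : ∀ v, σ (.inr v) = .inl (c.symm v) := fun v => rfl
  have h2 : ∀ w, σ (σ (.inl w)) = .inl (face x c w) := fun w => rfl
  have hiter : ∀ (i : ℕ) (w : W), σ.SameCycle (.inl w) (.inl ((face x c ^ i) w)) := by
    intro i
    induction i with
    | zero => intro w; exact Perm.SameCycle.refl _ _
    | succ i ih =>
      intro w
      rw [pow_succ', Perm.mul_apply, ← h2]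
      exact Perm.sameCycle_apply_right.2 (Perm.sameCycle_apply_right.2 (ih w))
  have hll : ∀ w w', σ.SameCycle (.inl w) (.inl w') := by
    intro w w'
    obtain ⟨i, hi⟩ := (hfull w w').exists_nat_pow_eq
    rw [← hi]
    exact hiter i w
  have hany : ∀ u, ∃ w, σ.SameCycle u (.inl w) := by
    rintro (w | v)
    · exact ⟨w, Perm.SameCycle.refl _ _⟩
    · refine ⟨c.symm v, ?_⟩
      rw [← hr]
      exact Perm.sameCycle_apply_right.2 (Perm.SameCycle.refl _ _)
  refine hamiltonian_of_perm _ σ ?_ ?_ ?_
  · intro u v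
    obtain ⟨w, hw⟩ := hany u
    obtain ⟨w', hw'⟩ := hany v
    exact (hw.trans (hll w w')).trans hw'.symm
  · rintro (w | v)
    · rw [hl]
      change a w = x w ∨ b w = x w ∨ c w = x w
      rcases hx w with h | h
      · exact Or.inl h.symm
      · exact Or.inr (Or.inl h.symm)
    · rw [hr]
      change a (c.symm v) = v ∨ b (c.symm v) = v ∨ c (c.symm v) = v
      exact Or.inr (Or.inr (by simp))
  · rw [Fintype.card_sum, ← Fintype.card_congr x]
    omega

end Ham

end Vale.Agent.P039
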