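import Vale.Agent.P039.Defs

/-!
# P039: multiplication by a transposition and the number of cycles
-/

namespace Vale.Agent.P039

open Equiv

namespace Split

variable {W : Type} [Fintype W] [DecidableEq W]

omit [DecidableEq W] in
/-- `SameCycle` is the least equivalence relation containing the pairs `(a, σ a)`. -/
theorem least {σ : Perm W} {r : W → W → Prop} (hr : Equivalence r) (h : ∀ a, r a (σ a)) {a b : W}
    (hab : σ.SameCycle a b) : r a b := by
  obtain ⟨n, hn⟩ := hab.exists_nat_pow_eq
  have key : ∀ n : ℕ, r a ((σ ^ n) a) := by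
    intro n
    induction n with
    | zero => exact hr.refl a
    | succ n ih =>
      rw [pow_succ', Perm.mul_apply]
      exact hr.trans ih (h _)
  exact hn ▸ key n

theorem same_of_not {σ : Perm W} {x y : W} (h : ¬ σ.SameCycle x y) :
    (σ * swap x y).SameCycle x y := by
  have hex : ∃ n : ℕ, 0 < n ∧ (σ ^ n) x = x :=
    ⟨orderOf σ, orderOf_pos σ, by rw [pow_orderOf_eq_one, Perm.one_apply]⟩
  classical
  obtain ⟨hk0, hk⟩ := Nat.find_spec hex
  set k := Nat.find hex with hkd
  have hmin : ∀ j, 0 < j → j < k → (σ ^ j) x ≠ x := fun j h1 h2 h3 => Nat.find_min hex h2 ⟨h1, h3⟩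
  have hy : ∀ j : ℕ, (σ ^ j) x ≠ y := fun j h1 => h ⟨j, by simpa using h1⟩
  have key : ∀ j, j + 1 ≤ k → ((σ * swap x y) ^ (j + 1)) y = (σ ^ (j + 1)) x := by
    intro j
    induction j with
    | zero =>
      intro _
      simp
    | succ j ih =>
      intro hj
      rw [pow_succ', Perm.mul_apply, ih (by omega), Perm.mul_apply,
        swap_apply_of_ne_of_ne (hmin _ (by omega) (by omega)) (hy _), pow_succ' σ (j + 1),
        Perm.mul_apply]
  have h1 := key (k - 1) (by omega)
  rw [Nat.sub_add_cancel hk0, hk] at h1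
  exact Perm.SameCycle.symm ⟨k, by simpa using h1⟩

theorem not_of_same {σ : Perm W} {x y : W} (hxy : x ≠ y) (h : σ.SameCycle x y) :
    ¬ (σ * swap x y).SameCycle x y := by
  have hex : ∃ n : ℕ, 0 < n ∧ (σ ^ n) y = x := by
    obtain ⟨n, h1, _, h2⟩ := h.symm.exists_pow_eq''
    exact ⟨n, h1, h2⟩
  classical
  obtain ⟨hk0, hk⟩ := Nat.find_spec hex
  set k := Nat.find hex with hkd
  have hmin : ∀ j, 0 < j → j < k → (σ ^ j) y ≠ x := fun j h1 h2 h3 => Nat.find_min hex h2 ⟨h1, h3⟩
  have hy : ∀ j, 0 < j → j ≤ k → (σ ^ j) y ≠ y := by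
    intro j h1 h2 h3
    rcases Nat.lt_or_ge j k with h4 | h4
    · apply hmin (k - j) (by omega) (by omega)
      have h5 : (σ ^ (k - j)) ((σ ^ j) y) = x := by
        rw [← Perm.mul_apply, ← pow_add, Nat.sub_add_cancel h2, hk]
      rwa [h3] at h5
    · have : j = k := by omega
      rw [this, hk] at h3
      exact hxy h3
  have key : ∀ n : ℕ, ∃ j, 0 < j ∧ j ≤ k ∧ ((σ * swap x y) ^ n) x = (σ ^ j) y := by
    intro n
    induction n with
    | zero => exact ⟨k, hk0, le_rfl, by rw [hk]; simp⟩
    | succ n ih =>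
      obtain ⟨j, h1, h2, h3⟩ := ih
      rcases Nat.lt_or_ge j k with h4 | h4
      · refine ⟨j + 1, by omega, by omega, ?_⟩
        rw [pow_succ', Perm.mul_apply, h3, Perm.mul_apply,
          swap_apply_of_ne_of_ne (hmin j h1 h4) (hy j h1 h2), pow_succ', Perm.mul_apply]
      · have hjk : j = k := by omega
        refine ⟨1, by omega, by omega, ?_⟩
        rw [pow_succ', Perm.mul_apply, h3, hjk, hk]
        simp
  intro hs
  obtain ⟨n, hn⟩ := hs.exists_nat_pow_eq
  obtain ⟨j, h1, h2, h3⟩ := key n
  exact hy j h1 h2 (h3.symm.trans hn)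

end Split

open Split

variable {W : Type} [Fintype W] [DecidableEq W]

theorem cyc_merge (σ : Equiv.Perm W) {x y : W} (h : ¬ σ.SameCycle x y) :
    cyc (σ * Equiv.swap x y) + 1 = cyc σ := by
  set τ := σ * Equiv.swap x y with hτ
  have hxy : τ.SameCycle x y := same_of_not h
  have hτx : τ x = σ y := by simp [hτ]
  have hτy : τ y = σ x := by simp [hτ]
  have hτa : ∀ a, a ≠ x → a ≠ y → τ a = σ a := by
    intro a h1 h2
    rw [hτ, Perm.mul_apply, swap_apply_of_ne_of_ne h1 h2]
  have hstep : ∀ a, τ.SameCycle a (τ a) := fun a => ⟨1, by simp⟩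
  have hstep' : ∀ a, σ.SameCycle a (σ a) := fun a => ⟨1, by simp⟩
  have L2 : ∀ a b, σ.SameCycle a b → τ.SameCycle a b := by
    intro a b hab
    refine least (r := τ.SameCycle) (Perm.SameCycle.equivalence τ) ?_ hab
    intro a
    by_cases h1 : a = x
    · subst h1
      rw [← hτy]
      exact hxy.trans (hstep y)
    · by_cases h2 : a = y
      · subst h2
        rw [← hτx]
        exact hxy.symm.trans (hstep x)
      · rw [← hτa a h1 h2]
        exact hstep a
  have L3 : ∀ a b, τ.SameCycle a b → σ.SameCycle a b ∨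
      ((σ.SameCycle a x ∨ σ.SameCycle a y) ∧ (σ.SameCycle b x ∨ σ.SameCycle b y)) := by
    intro a b hab
    refine least (r := fun a b => σ.SameCycle a b ∨
      ((σ.SameCycle a x ∨ σ.SameCycle a y) ∧ (σ.SameCycle b x ∨ σ.SameCycle b y))) ?_ ?_ hab
    · refine ⟨fun a => Or.inl (Perm.SameCycle.refl σ a), ?_, ?_⟩
      · rintro a b (h | h)
        · exact Or.inl h.symm
        · exact Or.inr ⟨h.2, h.1⟩
      · rintro a b c (h1 | h1) (h2 | h2)
        · exact Or.inl (h1.trans h2)
        · exact Or.inr ⟨h2.1.imp (fun h => h1.trans h) (fun h => h1.trans h), h2.2⟩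
        · exact Or.inr ⟨h1.1, h1.2.imp (fun h => h2.symm.trans h) (fun h => h2.symm.trans h)⟩
        · exact Or.inr ⟨h1.1, h2.2⟩
    · intro a
      by_cases h1 : a = x
      · subst h1
        rw [hτx]
        exact Or.inr ⟨Or.inl (Perm.SameCycle.refl σ _), Or.inr (hstep' y).symm⟩
      · by_cases h2 : a = y
        · subst h2
          rw [hτy]
          exact Or.inr ⟨Or.inr (Perm.SameCycle.refl σ _), Or.inl (hstep' x).symm⟩
        · rw [hτa a h1 h2]
          exact Or.inl (hstep' a)
  -- the quotient of `σ` without the class of `y`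
  let q : W → Quotient (Perm.SameCycle.setoid σ) := fun a => Quotient.mk _ a
  have hq : ∀ a b, q a = q b ↔ σ.SameCycle a b := fun a b => Quotient.eq
  let f : {c : Quotient (Perm.SameCycle.setoid σ) // c ≠ q y} →
      Quotient (Perm.SameCycle.setoid τ) := fun c =>
    Quotient.map' (s₁ := Perm.SameCycle.setoid σ) (s₂ := Perm.SameCycle.setoid τ) id L2 c.1
  have hf : Function.Bijective f := by
    constructor
    · rintro ⟨a, ha⟩ ⟨b, hb⟩ hab
      induction a using Quotient.inductionOn with | _ a => ?_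
      induction b using Quotient.inductionOn with | _ b => ?_
      have ha' : ¬ σ.SameCycle a y := fun h => ha ((hq a y).2 h)
      have hb' : ¬ σ.SameCycle b y := fun h => hb ((hq b y).2 h)
      have hab' : τ.SameCycle a b := Quotient.exact hab
      apply Subtype.ext
      refine (hq a b).2 ?_
      rcases L3 a b hab' with h1 | ⟨h1, h2⟩
      · exact h1
      · exact (h1.resolve_right ha').trans (h2.resolve_right hb').symm
    · intro c
      induction c using Quotient.inductionOn with | _ a => ?_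
      by_cases ha : σ.SameCycle a y
      · refine ⟨⟨q x, fun h1 => h ((hq x y).1 h1)⟩, ?_⟩
        exact Quotient.sound (hxy.trans (L2 _ _ ha).symm)
      · exact ⟨⟨q a, fun h1 => ha ((hq a y).1 h1)⟩, rfl⟩
  unfold cyc
  classical
  rw [← Nat.card_congr (Equiv.ofBijective f hf), ← Nat.card_congr (Equiv.optionSubtypeNe (q y)),
    Finite.card_option]

theorem cyc_split (σ : Equiv.Perm W) {x y : W} (hxy : x ≠ y) (h : σ.SameCycle x y) :
    cyc (σ * Equiv.swap x y) = cyc σ + 1 := by
  have h1 := cyc_merge (σ * Equiv.swap x y) (not_of_same hxy h)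
  rw [mul_assoc, Equiv.swap_mul_self, mul_one] at h1
  exact h1.symm

end Vale.Agent.P039
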