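import Vale.Agent.P039.PolyOf
import Vale.Agent.P039.Euler
import Vale.Agent.P039.Split

/-!
# P039: the theorems
-/

namespace Vale.Agent.P039

open Equiv

variable {W B : Type} [Fintype W] [Fintype B] [DecidableEq W] [DecidableEq B]

omit [Fintype W] [Fintype B] [DecidableEq W] [DecidableEq B] in
theorem sameCycle_face_comm (a c : W ≃ B) (w w' : W) :
    (face c a).SameCycle w w' ↔ (face a c).SameCycle w w' := by
  have : face c a = (face a c)⁻¹ := by
    rw [Perm.inv_def]; rfl
  rw [this, Perm.sameCycle_inv]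

omit [Fintype W] [Fintype B] [DecidableEq W] [DecidableEq B] in
theorem cyc_face_comm (a c : W ≃ B) : cyc (face c a) = cyc (face a c) := by
  have : face c a = (face a c)⁻¹ := by
    rw [Perm.inv_def]; rfl
  rw [this, Poly.cyc_inv]

theorem ham_of_forest (a b c : W ≃ B) (hconn : (graph a b c).Preconnected)
    (hW : 2 ≤ Fintype.card W) (s : W → Prop) (hs : ∀ w, s (face a b w) ↔ s w)
    (h1 : Forest (face a b) (face b c) {w | ¬ Square a b w ∧ s w})
    (h2 : Forest (face a b) (face c a) {w | ¬ Square a b w ∧ ¬ s w}) :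
    (graph a b c).IsHamiltonian := by
  obtain ⟨x, hx, hfull⟩ := Core.exists_full a b c hconn s hs
    (fun X hX hE => h1 X hE hX)
    (fun X hX hE => by
      obtain ⟨w, hw, h⟩ := h2 X hE hX
      refine ⟨w, hw, h.imp_right fun h' w' hw' hc => h' w' hw' ?_⟩
      exact (sameCycle_face_comm a c w w').2 hc)
  exact Ham.hamiltonian_of_full a b c x hx hfull hW

omit [Fintype W] [Fintype B] [DecidableEq W] [DecidableEq B] in
theorem graph_swap (a b c : W ≃ B) : graph b a c = graph a b c := by
  ext u v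
  rcases u with u | u <;> rcases v with v | v
  · exact Iff.rfl
  · change (b u = v ∨ a u = v ∨ c u = v) ↔ (a u = v ∨ b u = v ∨ c u = v)
    tauto
  · change (b v = u ∨ a v = u ∨ c v = u) ↔ (a v = u ∨ b v = u ∨ c v = u)
    tauto
  · exact Iff.rfl

theorem ham_of_groups (a b c : W ≃ B) (hs : ∀ w, a w ≠ b w ∧ b w ≠ c w ∧ c w ≠ a w)
    (h3 : ThreeConnected (graph a b c))
    (hE : cyc (face a b) + cyc (face b c) + cyc (face c a) = Fintype.card W + 2)
    (s : W → Prop) (hsf : ∀ w, s (face a b w) ↔ s w)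
    (h1 : ∀ w w', ¬ Square a b w → ¬ Square a b w' → s w → s w' →
      (face b c).SameCycle w w' → (face a b).SameCycle w w')
    (h2 : ∀ w w', ¬ Square a b w → ¬ Square a b w' → ¬ s w → ¬ s w' →
      (face c a).SameCycle w w' → (face a b).SameCycle w w') :
    (graph a b c).IsHamiltonian := by
  rw [cyc_face_comm a c] at hE
  have p1 : ∀ w w', (face a b).SameCycle w w' → (face b c).SameCycle w w' → w = w' :=
    fun w w' => Poly.poly_of (fun σ _ _ hxy h => cyc_split σ hxy h) euler a b c
      (fun w => (hs w).2.2.symm) h3 hE w w'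
  have p2 : ∀ w w', (face a b).SameCycle w w' → (face a c).SameCycle w w' → w = w' := by
    intro w w' h h'
    refine Poly.poly_of (fun σ _ _ hxy h => cyc_split σ hxy h) euler b a c
      (fun w => (hs w).2.1) (by rw [graph_swap]; exact h3) ?_ w w'
      ((sameCycle_face_comm a b w w').2 h) h'
    rw [cyc_face_comm a b]
    omega
  have hW : 2 ≤ Fintype.card W := by
    have h4 := h3.1
    rw [Nat.card_eq_fintype_card, Fintype.card_sum, ← Fintype.card_congr a] at h4
    omega
  refine ham_of_forest a b c (Poly.preconnected_of h3) hW s hsf ?_ ?_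
  · rintro X hX ⟨w, hw⟩
    refine ⟨w, hw, Or.inr fun w' hw' hc => ?_⟩
    exact (p1 w w' (h1 w w' (hX hw).1 (hX hw').1 (hX hw).2 (hX hw').2 hc) hc).symm
  · rintro X hX ⟨w, hw⟩
    refine ⟨w, hw, Or.inr fun w' hw' hc => ?_⟩
    exact (p2 w w' (h2 w w' (hX hw).1 (hX hw').1 (hX hw).2 (hX hw').2 hc)
      ((sameCycle_face_comm a c w w').1 hc)).symm

theorem ham_of_two (a b c : W ≃ B) (hs : ∀ w, a w ≠ b w ∧ b w ≠ c w ∧ c w ≠ a w)
    (h3 : ThreeConnected (graph a b c))
    (hE : cyc (face a b) + cyc (face b c) + cyc (face c a) = Fintype.card W + 2)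
    (w₁ w₂ : W) (h : ∀ w, Square a b w ∨ (face a b).SameCycle w₁ w ∨ (face a b).SameCycle w₂ w) :
    (graph a b c).IsHamiltonian := by
  refine ham_of_groups a b c hs h3 hE (fun w => (face a b).SameCycle w₁ w)
    (fun w => Perm.sameCycle_apply_right) ?_ ?_
  · intro w w' _ _ hw hw' _
    exact hw.symm.trans hw'
  · intro w w' hq hq' hw hw' _
    have h5 := ((h w).resolve_left hq).resolve_left hw
    have h6 := ((h w').resolve_left hq').resolve_left hw'
    exact h5.symm.trans h6

end Vale.Agent.P039
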