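import Vale.Agent.P039.Ham
import Vale.Agent.P039.Defs2

/-!
# P039: in the planar 3-connected case two faces share at most one edge
-/

namespace Vale.Agent.P039

open Equiv

namespace Poly

variable {W B : Type}

theorem cyc_inv (σ : Perm W) : cyc σ⁻¹ = cyc σ := by
  have : Perm.SameCycle.setoid σ⁻¹ = Perm.SameCycle.setoid σ :=
    Setoid.ext fun x y => Perm.sameCycle_inv
  unfold cyc
  rw [this]

theorem preconnected_of {V : Type} {G : SimpleGraph V} (h : ThreeConnected G) :
    G.Preconnected := by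
  have h1 := h.2 ∅ (by simp)
  rw [Set.compl_empty] at h1
  intro u v
  exact ((SimpleGraph.induceUnivIso G).connected_iff.1 h1).preconnected u v

/-- A cut which avoids a removed set of at most two vertices. -/
theorem no_cut {V : Type} {G : SimpleGraph V} (h : ThreeConnected G) (S T : Set V)
    (hS : S.ncard ≤ 2) (hT : ∀ u v, u ∉ S → v ∉ S → G.Adj u v → (u ∈ T ↔ v ∈ T)) :
    ∀ u v, u ∉ S → v ∉ S → (u ∈ T ↔ v ∈ T) := by
  intro u v hu hv
  obtain ⟨p⟩ := (h.2 S hS).preconnected ⟨u, hu⟩ ⟨v, hv⟩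
  have key : ∀ (x y : (Sᶜ : Set V)) (_ : (G.induce Sᶜ).Walk x y), (x.1 ∈ T ↔ y.1 ∈ T) := by
    intro x y p
    induction p with
    | nil => exact Iff.rfl
    | @cons x y z h _ ih => exact (hT x.1 y.1 x.2 y.2 h).trans ih
  exact key _ _ p

variable [Fintype W] [DecidableEq W]

/-- Two different faces which share a `b`-edge share no second one. -/
theorem poly_of
    (hsplit : ∀ (σ : Perm W) {x y : W}, x ≠ y → σ.SameCycle x y → cyc (σ * swap x y) = cyc σ + 1)
    (heuler : ∀ (a b : Perm W), Fintype.card W + 2 < cyc a + cyc b + cyc (b⁻¹ * a) →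
      ∃ S : Set W, S.Nonempty ∧ Sᶜ.Nonempty ∧ (∀ w, w ∈ S ↔ a w ∈ S) ∧ (∀ w, w ∈ S ↔ b w ∈ S))
    (a b c : W ≃ B) (hs : ∀ w, a w ≠ c w) (h3 : ThreeConnected (graph a b c))
    (hE : cyc (face a b) + cyc (face b c) + cyc (face a c) = Fintype.card W + 2)
    (w w' : W) (h1 : (face a b).SameCycle w w') (h2 : (face b c).SameCycle w w') : w = w' := by
  by_contra hne
  set b' : W ≃ B := (swap w w').trans b with hb'
  have e1 : cyc (face b' c) = cyc (face b c) + 1 := by
    have : face b' c = face b c * swap w w' := by ext u; simp [face, hb']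
    rw [this]; exact hsplit _ hne h2
  have e2 : cyc (face a b') = cyc (face a b) + 1 := by
    have : face a b' = ((face a b)⁻¹ * swap w w')⁻¹ := by
      rw [mul_inv_rev, inv_inv, Perm.inv_def, symm_swap]
      ext u
      simp [face, hb']
    rw [this, cyc_inv, hsplit _ hne (Perm.sameCycle_inv.2 h1), cyc_inv]
  have e3 : (face b' c)⁻¹ * face a c = face a b' := by
    ext u
    rw [Perm.mul_apply, Perm.inv_def]
    simp [face]
  obtain ⟨S, ⟨p, hp⟩, ⟨q, hq⟩, hSa, hSb⟩ := heuler (face a c) (face b' c)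
    (by rw [e3, e1, e2]; omega)
  -- the side of a vertex
  let T : Set (W ⊕ B) := {v | Sum.elim (fun u => u ∈ S) (fun v => c.symm v ∈ S) v}
  have hTl : ∀ u, (Sum.inl u ∈ T ↔ u ∈ S) := fun u => Iff.rfl
  have hTr : ∀ v, (Sum.inr v ∈ T ↔ c.symm v ∈ S) := fun v => Iff.rfl
  have hTa : ∀ u, (Sum.inl u ∈ T ↔ Sum.inr (a u) ∈ T) := fun u => hSa u
  have hTc : ∀ u, (Sum.inl u ∈ T ↔ Sum.inr (c u) ∈ T) := fun u => by
    rw [hTl, hTr, Equiv.symm_apply_apply]
  have hTb' : ∀ u, (Sum.inl u ∈ T ↔ Sum.inr (b' u) ∈ T) := fun u => hSb u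
  have hTb : ∀ u, u ≠ w → u ≠ w' → (Sum.inl u ∈ T ↔ Sum.inr (b u) ∈ T) := by
    intro u hu hu'
    have := hTb' u
    rwa [hb', Equiv.trans_apply, swap_apply_of_ne_of_ne hu hu'] at this
  have hTw : (Sum.inl w ∈ T ↔ Sum.inr (b w') ∈ T) := by
    have := hTb' w
    rwa [hb', Equiv.trans_apply, swap_apply_left] at this
  have hTw' : (Sum.inl w' ∈ T ↔ Sum.inr (b w) ∈ T) := by
    have := hTb' w'
    rwa [hb', Equiv.trans_apply, swap_apply_right] at this
  by_cases hww : (w ∈ S ↔ w' ∈ S)
  · -- no edge leaves `T`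
    have hall : ∀ u, (Sum.inl u ∈ T ↔ Sum.inr (b u) ∈ T) := by
      intro u
      by_cases hu : u = w
      · subst hu
        exact Iff.trans hww hTw'
      · by_cases hu' : u = w'
        · subst hu'
          exact Iff.trans hww.symm hTw
        · exact hTb u hu hu'
    have hadj : ∀ (u : W) (v : B), (a u = v ∨ b u = v ∨ c u = v) →
        (Sum.inl u ∈ T ↔ Sum.inr v ∈ T) := by
      rintro u v (h | h | h)
      · rw [← h]; exact hTa u
      · rw [← h]; exact hall u
      · rw [← h]; exact hTc u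
    have := no_cut h3 ∅ T (by simp) (by
      rintro (u | v) (u' | v') - - h
      · exact h.elim
      · exact hadj u v' h
      · exact (hadj u' v h).symm
      · exact h.elim) (.inl p) (.inl q) (by simp) (by simp)
    exact hq (this.1 hp)
  · -- remove the two ends on the same side
    have main : ∀ z z' : W, z ≠ z' → (∀ u, u ≠ z → u ≠ z' → (Sum.inl u ∈ T ↔ Sum.inr (b u) ∈ T)) →
        (Sum.inl z ∈ T ↔ Sum.inr (b z') ∈ T) → z ∈ S → z' ∉ S → False := by
      intro z z' hzz hb hz hzS hz'S
      let R : Set (W ⊕ B) := {Sum.inl z, Sum.inr (b z')}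
      have hR : R.ncard ≤ 2 := Set.ncard_pair (by simp) |>.le
      have hadj : ∀ (u : W) (v : B), Sum.inl u ∉ R → Sum.inr v ∉ R →
          (a u = v ∨ b u = v ∨ c u = v) → (Sum.inl u ∈ T ↔ Sum.inr v ∈ T) := by
        rintro u v hu hv (h | h | h)
        · rw [← h]; exact hTa u
        · rw [← h]
          refine hb u (fun e => hu (by simp [R, e])) (fun e => hv (by simp [R, ← h, e]))
        · rw [← h]; exact hTc u
      have hcut := no_cut h3 R T hR (by
        rintro (u | v) (u' | v') hu hv h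
        · exact h.elim
        · exact hadj u v' hu hv h
        · exact (hadj u' v hv hu h).symm
        · exact h.elim)
      have hz'R : Sum.inl z' ∉ R := by simp [R, hzz.symm]
      have haT : Sum.inr (a z) ∈ T := (hTa z).1 hzS
      have hcT : Sum.inr (c z) ∈ T := (hTc z).1 hzS
      by_cases haz : a z = b z'
      · have hcR : Sum.inr (c z) ∉ R := by
          simp only [R, Set.mem_insert_iff, Set.mem_singleton_iff, Sum.inr.injEq, reduceCtorEq,
            false_or]
          rw [← haz]
          exact (hs z).symm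
        exact hz'S ((hcut _ _ hcR hz'R).1 hcT)
      · have haR : Sum.inr (a z) ∉ R := by
          simp only [R, Set.mem_insert_iff, Set.mem_singleton_iff, Sum.inr.injEq, reduceCtorEq,
            false_or]
          exact haz
        exact hz'S ((hcut _ _ haR hz'R).1 haT)
    by_cases hwS : w ∈ S
    · have hw'S : w' ∉ S := fun h => hww ⟨fun _ => h, fun _ => hwS⟩
      exact main w w' hne hTb hTw hwS hw'S
    · have hw'S : w' ∈ S := by
        by_contra h
        exact hww ⟨fun h' => absurd h' hwS, fun h' => absurd h' h⟩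
      exact main w' w (Ne.symm hne) (fun u hu hu' => hTb u hu' hu) hTw' hw'S hwS

end Poly

end Vale.Agent.P039
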